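import Mathlib

/-!
Abstract coordinate theorem for an arbitrary matroid `M` and finitely many coordinate sets with
a dichotomy structure.  This is the combinatorial heart of the P068 hand-in.
-/

namespace Vale.Agent.Lib.P068

open Set

section Abstract

variable {α ι : Type*}

/-- Union of the coordinates in a finite index set. -/
def Un (P : ι → Set α) (S : Finset ι) : Set α := ⋃ i ∈ S, P i

lemma mem_Un {P : ι → Set α} {S : Finset ι} {x : α} : x ∈ Un P S ↔ ∃ i ∈ S, x ∈ P i := by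
  simp [Un]

lemma subset_Un {P : ι → Set α} {S : Finset ι} {i : ι} (hi : i ∈ S) : P i ⊆ Un P S :=
  fun _ hx => mem_Un.2 ⟨i, hi, hx⟩

lemma Un_mono {P : ι → Set α} {S T : Finset ι} (h : S ⊆ T) : Un P S ⊆ Un P T := by
  intro x hx
  obtain ⟨i, hi, hxi⟩ := mem_Un.1 hx
  exact mem_Un.2 ⟨i, h hi, hxi⟩

lemma Un_empty' {P : ι → Set α} : Un P (∅ : Finset ι) = ∅ := by
  simp [Un]

/-- The hypotheses on the coordinate predicates. -/
structure Dichotomy (P : ι → Set α) (Ind Spn : ι → Set α → Prop) : Prop where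
  disj : Pairwise (Function.onFun Disjoint P)
  ind_mono : ∀ i X Y, X ⊆ Y → Ind i Y → Ind i X
  spn_mono : ∀ i X Y, X ⊆ Y → Spn i X → Spn i Y
  dich : ∀ i X, Ind i X ∨ Spn i X
  ext : ∀ i X Y, X ⊆ Y → Ind i X → Spn i Y → ∃ Z, X ⊆ Z ∧ Z ⊆ Y ∧ Ind i Z ∧ Spn i Z

/-- A relative wave. -/
def Wave (M : Matroid α) (P : ι → Set α) (Ind : ι → Set α → Prop) (W : Set α) (D : Finset ι) :
    Prop :=
  ∃ Q, M.Indep Q ∧ W ⊆ Q ∧ Q \ W ⊆ Un P D ∧ Un P D ⊆ M.closure Q ∧ ∀ i ∈ D, Ind i (Q ∩ P i)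

/-- Absence of relative waves. -/
def Hfree (M : Matroid α) (P : ι → Set α) (Ind : ι → Set α → Prop) (W : Set α) (S : Finset ι) :
    Prop :=
  ∀ D ⊆ S, D.Nonempty → ¬ Wave M P Ind W D

/-- The exact statement. -/
def ExactSt (M : Matroid α) (P : ι → Set α) (Ind Spn : ι → Set α → Prop) (S : Finset ι) : Prop :=
  ∀ W, M.Indep W → (∀ i ∈ S, Ind i (W ∩ P i)) → Hfree M P Ind W S →
    ∃ B, M.Indep B ∧ W ⊆ B ∧ B \ W ⊆ Un P S ∧ (∀ i ∈ S, Ind i (B ∩ P i)) ∧
      ∀ i ∈ S, Spn i (B ∩ P i)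

/-- The solution statement. -/
def SolSt (M : Matroid α) (P : ι → Set α) (Ind Spn : ι → Set α → Prop) (S : Finset ι) : Prop :=
  ∀ W, M.Indep W → (∀ i ∈ S, Ind i (W ∩ P i)) →
    ∃ C ⊆ S, ∃ B, M.Indep B ∧ W ⊆ B ∧ B \ W ⊆ Un P S ∧ (∀ i ∈ S, Ind i (B ∩ P i)) ∧
      Un P C ⊆ M.closure (W ∪ (B ∩ Un P C)) ∧ ∀ i ∈ S, i ∉ C → Spn i (B ∩ P i)

/-- The lifting statement. -/
def LiftSt (M : Matroid α) (P : ι → Set α) (Ind Spn : ι → Set α → Prop) (S : Finset ι) : Prop :=
  ∀ W, M.Indep W → (∀ i ∈ S, Ind i (W ∩ P i)) → Hfree M P Ind W S →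
    ∀ Q, M.Indep Q → W ⊆ Q → Q \ W ⊆ Un P S → (∀ i ∈ S, Ind i (Q ∩ P i)) →
      ∃ B, M.Indep B ∧ W ⊆ B ∧ B \ W ⊆ Un P S ∧ (∀ i ∈ S, Ind i (B ∩ P i)) ∧
        (∀ i ∈ S, Spn i (B ∩ P i)) ∧ Q ⊆ M.closure B

variable {M : Matroid α} {P : ι → Set α} {Ind Spn : ι → Set α → Prop}

/-- A point of `P i` which lies in `Un P D` forces `i ∈ D`. -/
lemma index_mem_of_mem_Un (hD : Dichotomy P Ind Spn) {D : Finset ι} {i : ι} {x : α}
    (hxi : x ∈ P i) (hx : x ∈ Un P D) : i ∈ D := by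
  obtain ⟨j, hj, hxj⟩ := mem_Un.1 hx
  by_cases hij : i = j
  · exact hij ▸ hj
  · exact absurd hxj (Set.disjoint_left.1 (hD.disj hij) hxi)

/-- Trace monotonicity for a set which differs from `W` only outside the coordinate. -/
lemma trace_subset (hD : Dichotomy P Ind Spn) {D : Finset ι} {i : ι} {X W : Set α}
    (hX : X \ W ⊆ Un P D) (hi : i ∉ D) : X ∩ P i ⊆ W ∩ P i := by
  rintro x ⟨hxX, hxi⟩
  refine ⟨?_, hxi⟩
  by_contra hxW
  exact hi (index_mem_of_mem_Un hD hxi (hX ⟨hxX, hxW⟩))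

/-- Replacing an independent spanning subset of `J ∪ T`. -/
lemma indep_swap_closure {A T J : Set α} (hA : M.Indep A) (hT : M.Indep T)
    (h : M.closure A = M.closure T) (hJ : M.Indep (J ∪ T)) (hdisj : Disjoint J T) :
    M.Indep (J ∪ A) := by
  have hbT : M.IsBasis T (M.closure T) := hT.isBasis_closure
  have hbA : M.IsBasis A (M.closure T) := h ▸ hA.isBasis_closure
  have hFJ : Disjoint (M.closure T) J := by
    rw [Set.disjoint_left]
    intro x hxF hxJ
    have := hJ.closure_inter_eq_self_of_subset (J := T) subset_union_right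
    have hx : x ∈ M.closure T ∩ (J ∪ T) := ⟨hxF, Or.inl hxJ⟩
    rw [this] at hx
    exact Set.disjoint_left.1 hdisj hxJ hx
  have h1 : (M.contract (M.closure T)).Indep J := hbT.contract_indep_iff.2 ⟨hJ, hFJ⟩
  exact (hbA.contract_indep_iff.1 h1).1

/-- Extending an independent set inside a superset. -/
lemma exists_extend {A G : Set α} (hA : M.Indep A) :
    ∃ I, M.Indep I ∧ A ⊆ I ∧ I ⊆ A ∪ G ∧ M.closure I = M.closure (A ∪ G) := by
  obtain ⟨I, hI, hAI⟩ := hA.subset_isBasis'_of_subset (subset_union_left (t := G))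
  exact ⟨I, hI.indep, hAI, hI.subset, hI.closure_eq_closure⟩


/-- One step: the exact statement for `insert l S` from the smaller ones. -/
lemma exact_step [DecidableEq ι] (hD : Dichotomy P Ind Spn) (hP : ∀ i, P i ⊆ M.E)
    {l : ι} {S : Finset ι} (hl : l ∉ S) (hSol : SolSt M P Ind Spn S)
    (hL : ∀ C ⊆ S, LiftSt M P Ind Spn C) : ExactSt M P Ind Spn (insert l S) := by
  intro W hW hWI hH
  have hWS : ∀ i ∈ S, i ≠ l := fun i hi h => hl (h ▸ hi)
  -- extend `W` inside `W ∪ P l`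
  obtain ⟨G, hGi, hWG, hGsub, hGcl⟩ := exists_extend (M := M) (G := P l) hW
  have hGW : G \ W ⊆ P l := by
    rintro x ⟨hx, hxW⟩
    exact (hGsub hx).resolve_left hxW
  have hPlG : P l ⊆ M.closure G := by
    rw [hGcl]
    exact M.subset_closure_of_subset subset_union_right
      (union_subset hW.subset_ground (hP l))
  have hGtr : ∀ i ∈ S, G ∩ P i ⊆ W ∩ P i := by
    rintro i hi x ⟨hx, hxi⟩
    refine ⟨?_, hxi⟩
    by_contra hxW
    exact Set.disjoint_left.1 (hD.disj (hWS i hi)) hxi (hGW ⟨hx, hxW⟩)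
  have hGI : ∀ i ∈ S, Ind i (G ∩ P i) := fun i hi =>
    hD.ind_mono i _ _ (hGtr i hi) (hWI i (Finset.mem_insert_of_mem hi))
  obtain ⟨C, hCS, B', hB'i, hGB', hB'G, hB'I, hB'cl, hB'S⟩ := hSol G hGi hGI
  -- the part of `B'` on the coordinates of `C`
  have hQ1i : M.Indep (W ∪ (B' ∩ Un P C)) :=
    hB'i.subset (union_subset (hWG.trans hGB') inter_subset_left)
  have hHC : Hfree M P Ind W C := fun D hDC hne =>
    hH D (hDC.trans (hCS.trans (Finset.subset_insert _ _))) hne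
  have hWIC : ∀ i ∈ C, Ind i (W ∩ P i) := fun i hi =>
    hWI i (Finset.mem_insert_of_mem (hCS hi))
  obtain ⟨BC, hBCi, hWBC, hBCW, hBCI, hBCS, hBCcl⟩ :=
    hL C hCS W hW hWIC hHC (W ∪ (B' ∩ Un P C)) hQ1i subset_union_left
      (by
        rintro x ⟨hx, hxW⟩
        exact (hx.resolve_left hxW).2)
      (by
        intro i hi
        refine hD.ind_mono i _ _ ?_ (hB'I i (hCS hi))
        rintro x ⟨hx | hx, hxi⟩
        · exact ⟨hGB' (hWG hx), hxi⟩
        · exact ⟨hx.1, hxi⟩)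
  -- the spanning set `T`
  set T := G ∪ (B' ∩ Un P C) with hTdef
  have hTB' : T ⊆ B' := union_subset hGB' inter_subset_left
  have hTi : M.Indep T := hB'i.subset hTB'
  have hBCT : BC ⊆ M.closure T := by
    intro x hx
    by_cases hxW : x ∈ W
    · exact M.subset_closure_of_subset (Set.subset_union_of_subset_left hWG _) hTi.subset_ground hxW
    · refine (M.closure_subset_closure ?_) (hB'cl (hBCW ⟨hx, hxW⟩))
      rfl
  obtain ⟨A, hAi, hBCA, hAsub, hAcl⟩ := exists_extend (M := M) (G := G) hBCi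
  have hAT : M.closure A = M.closure T := by
    rw [hAcl]
    apply subset_antisymm
    · apply M.closure_subset_closure_of_subset_closure
      refine union_subset hBCT ?_
      exact M.subset_closure_of_subset subset_union_left hTi.subset_ground
    · apply M.closure_subset_closure_of_subset_closure
      refine union_subset ?_ ?_
      · exact M.subset_closure_of_subset subset_union_right
          (union_subset hBCi.subset_ground hGi.subset_ground)
      · intro x hx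
        exact M.closure_subset_closure subset_union_left (hBCcl (Or.inr hx))
  have hADiff : A \ BC ⊆ P l := by
    rintro x ⟨hx, hxBC⟩
    have hxG : x ∈ G := (hAsub hx).resolve_left hxBC
    exact hGW ⟨hxG, fun hxW => hxBC (hWBC hxW)⟩
  set J := B' \ T with hJdef
  have hJT : J ∪ T = B' := by
    rw [hJdef]; exact sdiff_union_of_subset hTB'
  have hB2i : M.Indep (J ∪ A) :=
    indep_swap_closure hAi hTi hAT (hJT ▸ hB'i) (by
      rw [hJdef]; exact disjoint_sdiff_left)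
  have hJsub : J ⊆ Un P S := by
    rintro x ⟨hxB', hxT⟩
    exact hB'G ⟨hxB', fun hxG => hxT (Or.inl hxG)⟩
  have hJC : ∀ i ∈ C, J ∩ P i = ∅ := by
    intro i hi
    ext x
    simp only [mem_inter_iff, mem_empty_iff_false, iff_false, not_and]
    rintro ⟨hxB', hxT⟩ hxi
    exact hxT (Or.inr ⟨hxB', subset_Un hi hxi⟩)
  -- traces on coordinates in `C`
  have htrC : ∀ i ∈ C, (J ∪ A) ∩ P i ⊆ BC ∩ P i := by
    rintro i hi x ⟨hx | hx, hxi⟩
    · exact absurd (show x ∈ J ∩ P i from ⟨hx, hxi⟩) (by simp [hJC i hi])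
    · refine ⟨?_, hxi⟩
      by_contra hxBC
      exact Set.disjoint_left.1 (hD.disj (hWS i (hCS hi))) hxi (hADiff ⟨hx, hxBC⟩)
  have htrC' : ∀ i ∈ C, BC ∩ P i ⊆ (J ∪ A) ∩ P i := fun i _ =>
    inter_subset_inter_left _ (hBCA.trans subset_union_right)
  -- traces on coordinates in `S \ C`
  have htrS : ∀ i ∈ S, i ∉ C → (J ∪ A) ∩ P i ⊆ B' ∩ P i := by
    rintro i hi hiC x ⟨hx | hx, hxi⟩
    · exact ⟨hx.1, hxi⟩
    · refine ⟨?_, hxi⟩
      by_cases hxBC : x ∈ BC
      · by_cases hxW : x ∈ W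
        · exact hGB' (hWG hxW)
        · exact absurd (index_mem_of_mem_Un hD hxi (hBCW ⟨hxBC, hxW⟩)) hiC
      · exact absurd (hADiff ⟨hx, hxBC⟩)
          (fun h => Set.disjoint_left.1 (hD.disj (hWS i hi)) hxi h)
  have htrS' : ∀ i ∈ S, i ∉ C → B' ∩ P i ⊆ (J ∪ A) ∩ P i := by
    rintro i hi hiC x ⟨hx, hxi⟩
    refine ⟨?_, hxi⟩
    by_cases hxT : x ∈ T
    · rcases hxT with hxG | hxU
      · by_cases hxW : x ∈ W
        · exact Or.inr (hBCA (hWBC hxW))
        · exact absurd (hGW ⟨hxG, hxW⟩)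
            (fun h => Set.disjoint_left.1 (hD.disj (hWS i hi)) hxi h)
      · exact absurd (index_mem_of_mem_Un hD hxi hxU.2) hiC
    · exact Or.inl ⟨hx, hxT⟩
  have hAWsub : A \ W ⊆ Un P (insert l C) := by
    rintro x ⟨hx, hxW⟩
    by_cases hxBC : x ∈ BC
    · exact Un_mono (Finset.subset_insert _ _) (hBCW ⟨hxBC, hxW⟩)
    · exact subset_Un (Finset.mem_insert_self _ _) (hADiff ⟨hx, hxBC⟩)
  by_cases hspn : Spn l ((J ∪ A) ∩ P l)
  · -- the good case
    have hWsub : W ∩ P l ⊆ (J ∪ A) ∩ P l :=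
      inter_subset_inter_left _ ((hWBC.trans hBCA).trans subset_union_right)
    obtain ⟨Z, hWZ, hZsub, hZI, hZS⟩ :=
      hD.ext l _ _ hWsub (hWI l (Finset.mem_insert_self _ _)) hspn
    have hZl : Z ⊆ P l := fun x hx => (hZsub hx).2
    have hBdef : M.Indep (((J ∪ A) \ P l) ∪ Z) :=
      hB2i.subset (union_subset sdiff_subset (fun x hx => (hZsub hx).1))
    have htr : ∀ i ∈ S, (((J ∪ A) \ P l) ∪ Z) ∩ P i = (J ∪ A) ∩ P i := by
      intro i hi
      ext x
      constructor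
      · rintro ⟨hx | hx, hxi⟩
        · exact ⟨hx.1, hxi⟩
        · exact ⟨(hZsub hx).1, hxi⟩
      · rintro ⟨hx, hxi⟩
        exact ⟨Or.inl ⟨hx, fun hxl =>
          Set.disjoint_left.1 (hD.disj (hWS i hi)) hxi hxl⟩, hxi⟩
    have htrl : (((J ∪ A) \ P l) ∪ Z) ∩ P l = Z := by
      ext x
      constructor
      · rintro ⟨hx | hx, hxi⟩
        · exact absurd hxi hx.2
        · exact hx
      · intro hx
        exact ⟨Or.inr hx, hZl hx⟩
    refine ⟨((J ∪ A) \ P l) ∪ Z, hBdef, ?_, ?_, ?_, ?_⟩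
    · intro x hxW
      by_cases hxl : x ∈ P l
      · exact Or.inr (hWZ ⟨hxW, hxl⟩)
      · exact Or.inl ⟨Or.inr (hBCA (hWBC hxW)), hxl⟩
    · rintro x ⟨hx | hx, hxW⟩
      · rcases hx.1 with hxJ | hxA
        · exact Un_mono (Finset.subset_insert _ _) (hJsub hxJ)
        · exact Un_mono (Finset.insert_subset_insert _ hCS) (hAWsub ⟨hxA, hxW⟩)
      · exact subset_Un (Finset.mem_insert_self _ _) (hZl hx)
    · intro i hi
      rcases Finset.mem_insert.1 hi with rfl | hiS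
      · rw [htrl]; exact hZI
      · rw [htr i hiS]
        by_cases hiC : i ∈ C
        · exact hD.ind_mono i _ _ (htrC i hiC) (hBCI i hiC)
        · exact hD.ind_mono i _ _ (htrS i hiS hiC) (hB'I i hiS)
    · intro i hi
      rcases Finset.mem_insert.1 hi with rfl | hiS
      · rw [htrl]; exact hZS
      · rw [htr i hiS]
        by_cases hiC : i ∈ C
        · exact hD.spn_mono i _ _ (htrC' i hiC) (hBCS i hiC)
        · exact hD.spn_mono i _ _ (htrS' i hiS hiC) (hB'S i hiS hiC)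
  · -- the bad case yields a wave
    exfalso
    have hind : Ind l ((J ∪ A) ∩ P l) := (hD.dich l _).resolve_right hspn
    refine hH (insert l C) (Finset.insert_subset_insert _ hCS) (Finset.insert_nonempty _ _) ?_
    refine ⟨A, hAi, hWBC.trans hBCA, hAWsub, ?_, ?_⟩
    · intro x hx
      obtain ⟨i, hi, hxi⟩ := mem_Un.1 hx
      rw [hAT]
      rcases Finset.mem_insert.1 hi with rfl | hiC
      · exact M.closure_subset_closure subset_union_left (hPlG hxi)
      · exact hB'cl (subset_Un hiC hxi)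
    · intro i hi
      rcases Finset.mem_insert.1 hi with rfl | hiC
      · exact hD.ind_mono i _ _ (inter_subset_inter_left _ subset_union_right) hind
      · exact hD.ind_mono i _ _ ((inter_subset_inter_left _ subset_union_right).trans
          (htrC i hiC)) (hBCI i hiC)


/-- Choosing a maximal-cardinality member of a nonempty family of subsets of `S`. -/
lemma exists_max_card {S : Finset ι} {𝒞 : Finset ι → Prop} (h0 : 𝒞 ∅) :
    ∃ C ⊆ S, 𝒞 C ∧ ∀ D ⊆ S, 𝒞 D → D.card ≤ C.card := by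
  classical
  obtain ⟨C, hC, hmax⟩ := Finset.exists_max_image (S.powerset.filter 𝒞) Finset.card
    ⟨∅, by simp [h0]⟩
  rw [Finset.mem_filter, Finset.mem_powerset] at hC
  refine ⟨C, hC.1, hC.2, fun D hD hDc => hmax D ?_⟩
  rw [Finset.mem_filter, Finset.mem_powerset]
  exact ⟨hD, hDc⟩

/-- Solutions from exact statements for all subsets. -/
lemma sol_step [DecidableEq ι] (hD : Dichotomy P Ind Spn) {S : Finset ι}
    (hE : ∀ A ⊆ S, ExactSt M P Ind Spn A) : SolSt M P Ind Spn S := by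
  intro W hW hWI
  obtain ⟨C, hCS, ⟨Q, hQi, hWQ, hQW, hQcl, hQI⟩, hmax⟩ := exists_max_card (S := S)
    (𝒞 := fun C => Wave M P Ind W C)
    ⟨W, hW, Subset.rfl, by simp, by simp [Un_empty'], by simp⟩
  have hAI : ∀ i ∈ S \ C, Ind i (Q ∩ P i) := by
    intro i hi
    rw [Finset.mem_sdiff] at hi
    exact hD.ind_mono i _ _ (trace_subset hD hQW hi.2) (hWI i hi.1)
  have hHf : Hfree M P Ind Q (S \ C) := by
    rintro D hDA hne ⟨Q', hQ'i, hQQ', hQ'W, hQ'cl, hQ'I⟩
    have hdisj : Disjoint C D := by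
      rw [Finset.disjoint_left]
      intro i hiC hiD
      exact (Finset.mem_sdiff.1 (hDA hiD)).2 hiC
    have hWave : Wave M P Ind W (C ∪ D) := by
      refine ⟨Q', hQ'i, hWQ.trans hQQ', ?_, ?_, ?_⟩
      · rintro x ⟨hx, hxW⟩
        by_cases hxQ : x ∈ Q
        · exact Un_mono Finset.subset_union_left (hQW ⟨hxQ, hxW⟩)
        · exact Un_mono Finset.subset_union_right (hQ'W ⟨hx, hxQ⟩)
      · intro x hx
        obtain ⟨i, hi, hxi⟩ := mem_Un.1 hx
        rcases Finset.mem_union.1 hi with hiC | hiD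
        · exact M.closure_subset_closure hQQ' (hQcl (subset_Un hiC hxi))
        · exact hQ'cl (subset_Un hiD hxi)
      · intro i hi
        rcases Finset.mem_union.1 hi with hiC | hiD
        · refine hD.ind_mono i _ _ ?_ (hQI i hiC)
          have : i ∉ D := fun h => Finset.disjoint_left.1 hdisj hiC h
          exact trace_subset hD hQ'W this
        · exact hQ'I i hiD
    have hcard := hmax (C ∪ D) (Finset.union_subset hCS (hDA.trans Finset.sdiff_subset)) hWave
    rw [Finset.card_union_of_disjoint hdisj] at hcard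
    have : 0 < D.card := Finset.card_pos.2 hne
    omega
  obtain ⟨B, hBi, hQB, hBQ, hBI, hBS⟩ := hE (S \ C) Finset.sdiff_subset Q hQi hAI hHf
  refine ⟨C, hCS, B, hBi, hWQ.trans hQB, ?_, ?_, ?_, ?_⟩
  · rintro x ⟨hx, hxW⟩
    by_cases hxQ : x ∈ Q
    · exact Un_mono hCS (hQW ⟨hxQ, hxW⟩)
    · exact Un_mono Finset.sdiff_subset (hBQ ⟨hx, hxQ⟩)
  · intro i hi
    by_cases hiC : i ∈ C
    · refine hD.ind_mono i _ _ ?_ (hQI i hiC)
      refine trace_subset hD hBQ ?_
      intro h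
      exact (Finset.mem_sdiff.1 h).2 hiC
    · exact hBI i (Finset.mem_sdiff.2 ⟨hi, hiC⟩)
  · refine hQcl.trans (M.closure_subset_closure ?_)
    intro x hx
    by_cases hxW : x ∈ W
    · exact Or.inl hxW
    · exact Or.inr ⟨hQB hx, hQW ⟨hx, hxW⟩⟩
  · intro i hi hiC
    exact hBS i (Finset.mem_sdiff.2 ⟨hi, hiC⟩)

/-- The lifting statement from solutions and smaller lifting statements. -/
lemma lift_step [DecidableEq ι] (hD : Dichotomy P Ind Spn) {S : Finset ι}
    (hSol : ∀ A ⊆ S, SolSt M P Ind Spn A)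
    (hL : ∀ C ⊂ S, LiftSt M P Ind Spn C) : LiftSt M P Ind Spn S := by
  intro W hW hWI hH Q hQi hWQ hQW hQI
  by_cases hS : S = ∅
  · subst hS
    refine ⟨Q, hQi, hWQ, hQW, by simp, by simp, M.subset_closure Q hQi.subset_ground⟩
  obtain ⟨C, hCS, ⟨W₁, hW₁i, hWW₁, hW₁W, hW₁I, hQW₁, hCW₁⟩, hmax⟩ := exists_max_card (S := S)
    (𝒞 := fun C => ∃ W₁, M.Indep W₁ ∧ W ⊆ W₁ ∧ W₁ \ W ⊆ Un P S ∧ (∀ i ∈ S, Ind i (W₁ ∩ P i)) ∧
      Q ⊆ M.closure W₁ ∧ Un P C ⊆ M.closure W₁)
    ⟨Q, hQi, hWQ, hQW, hQI, M.subset_closure Q hQi.subset_ground, by simp [Un_empty']⟩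
  have hCne : C ≠ S := by
    rintro rfl
    refine hH C Subset.rfl (Finset.nonempty_iff_ne_empty.2 hS) ?_
    exact ⟨W₁, hW₁i, hWW₁, hW₁W, hCW₁, hW₁I⟩
  have hCss : C ⊂ S := Finset.ssubset_iff_subset_ne.2 ⟨hCS, hCne⟩
  -- upgrade on the coordinates of `C`
  obtain ⟨BC, hBCi, hWBC, hBCW, hBCI, hBCS, hBCcl⟩ :=
    hL C hCss W hW (fun i hi => hWI i (hCS hi))
      (fun D hDC hne => hH D (hDC.trans hCS) hne)
      (W ∪ (W₁ ∩ Un P C)) (hW₁i.subset (union_subset hWW₁ inter_subset_left)) subset_union_left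
      (by
        rintro x ⟨hx, hxW⟩
        exact (hx.resolve_left hxW).2)
      (by
        intro i hi
        refine hD.ind_mono i _ _ ?_ (hW₁I i (hCS hi))
        rintro x ⟨hx | hx, hxi⟩
        · exact ⟨hWW₁ hx, hxi⟩
        · exact ⟨hx.1, hxi⟩)
  obtain ⟨I, hIi, hBCI', hIsub, hIcl⟩ := exists_extend (M := M) (G := W₁) hBCi
  have hBCW₁ : BC ⊆ M.closure W₁ := by
    intro x hx
    by_cases hxW : x ∈ W
    · exact M.subset_closure W₁ hW₁i.subset_ground (hWW₁ hxW)
    · exact hCW₁ (hBCW ⟨hx, hxW⟩)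
  have hIW₁ : M.closure I = M.closure W₁ := by
    rw [hIcl]
    apply subset_antisymm
    · apply M.closure_subset_closure_of_subset_closure
      exact union_subset hBCW₁ (M.subset_closure W₁ hW₁i.subset_ground)
    · exact M.closure_subset_closure subset_union_right
  have htrC : ∀ i ∈ C, I ∩ P i ⊆ BC ∩ P i := by
    rintro i hi x ⟨hx, hxi⟩
    refine ⟨?_, hxi⟩
    by_contra hxBC
    have hxW₁ : x ∈ W₁ := (hIsub hx).resolve_left hxBC
    have hxcl : x ∈ M.closure BC := hBCcl (Or.inr ⟨hxW₁, subset_Un hi hxi⟩)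
    have := hIi.closure_inter_eq_self_of_subset hBCI'
    have hx' : x ∈ M.closure BC ∩ I := ⟨hxcl, hx⟩
    rw [this] at hx'
    exact hxBC hx'
  have htrS : ∀ i, i ∉ C → I ∩ P i ⊆ W₁ ∩ P i := by
    rintro i hi x ⟨hx, hxi⟩
    refine ⟨?_, hxi⟩
    rcases hIsub hx with hxBC | hxW₁
    · by_cases hxW : x ∈ W
      · exact hWW₁ hxW
      · exact absurd (index_mem_of_mem_Un hD hxi (hBCW ⟨hxBC, hxW⟩)) hi
    · exact hxW₁
  have hIWsub : I \ W ⊆ Un P S := by
    rintro x ⟨hx, hxW⟩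
    rcases hIsub hx with hxBC | hxW₁
    · exact Un_mono hCS (hBCW ⟨hxBC, hxW⟩)
    · exact hW₁W ⟨hxW₁, hxW⟩
  have hIA : ∀ i ∈ S \ C, Ind i (I ∩ P i) := by
    intro i hi
    rw [Finset.mem_sdiff] at hi
    exact hD.ind_mono i _ _ (htrS i hi.2) (hW₁I i hi.1)
  -- apply the solution statement to the remaining coordinates
  obtain ⟨C₄, hC₄, B₄, hB₄i, hIB₄, hB₄I, hB₄Ind, hC₄cl, hB₄S⟩ :=
    hSol (S \ C) Finset.sdiff_subset I hIi hIA
  have hdisj : Disjoint C C₄ := by
    rw [Finset.disjoint_left]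
    intro i hiC hiD
    exact (Finset.mem_sdiff.1 (hC₄ hiD)).2 hiC
  have hW₃i : M.Indep (I ∪ (B₄ ∩ Un P C₄)) :=
    hB₄i.subset (union_subset hIB₄ inter_subset_left)
  have hmem : C ∪ C₄ ⊆ S := Finset.union_subset hCS (hC₄.trans Finset.sdiff_subset)
  have hC₄e : C₄ = ∅ := by
    by_contra hne
    have hne' : C₄.Nonempty := Finset.nonempty_iff_ne_empty.2 hne
    have hcard := hmax (C ∪ C₄) hmem ⟨I ∪ (B₄ ∩ Un P C₄), hW₃i,
      (hWBC.trans hBCI').trans subset_union_left, ?_, ?_, ?_, ?_⟩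
    · rw [Finset.card_union_of_disjoint hdisj] at hcard
      have : 0 < C₄.card := Finset.card_pos.2 hne'
      omega
    · rintro x ⟨hx | hx, hxW⟩
      · exact hIWsub ⟨hx, hxW⟩
      · exact Un_mono (hC₄.trans Finset.sdiff_subset) hx.2
    · intro i hi
      by_cases hiC : i ∈ C
      · refine hD.ind_mono i _ _ ?_ (hBCI i hiC)
        rintro x ⟨hx | hx, hxi⟩
        · exact htrC i hiC ⟨hx, hxi⟩
        · have := index_mem_of_mem_Un hD hxi hx.2
          exact absurd this (fun h => Finset.disjoint_left.1 hdisj hiC h)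
      · refine hD.ind_mono i _ _ ?_ (hB₄Ind i (Finset.mem_sdiff.2 ⟨hi, hiC⟩))
        exact inter_subset_inter_left _ (union_subset hIB₄ inter_subset_left)
    · refine hQW₁.trans ?_
      rw [← hIW₁]
      exact M.closure_subset_closure subset_union_left
    · intro x hx
      obtain ⟨i, hi, hxi⟩ := mem_Un.1 hx
      rcases Finset.mem_union.1 hi with hiC | hiD
      · have := hCW₁ (subset_Un hiC hxi)
        rw [← hIW₁] at this
        exact M.closure_subset_closure subset_union_left this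
      · exact hC₄cl (subset_Un hiD hxi)
  subst hC₄e
  refine ⟨B₄, hB₄i, (hWBC.trans hBCI').trans hIB₄, ?_, ?_, ?_, ?_⟩
  · rintro x ⟨hx, hxW⟩
    by_cases hxI : x ∈ I
    · exact hIWsub ⟨hxI, hxW⟩
    · exact Un_mono Finset.sdiff_subset (hB₄I ⟨hx, hxI⟩)
  · intro i hi
    by_cases hiC : i ∈ C
    · refine hD.ind_mono i _ _ ?_ (hBCI i hiC)
      rintro x ⟨hx, hxi⟩
      by_cases hxI : x ∈ I
      · exact htrC i hiC ⟨hxI, hxi⟩
      · have := index_mem_of_mem_Un hD hxi (hB₄I ⟨hx, hxI⟩)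
        exact absurd hiC (Finset.mem_sdiff.1 this).2
    · exact hB₄Ind i (Finset.mem_sdiff.2 ⟨hi, hiC⟩)
  · intro i hi
    by_cases hiC : i ∈ C
    · refine hD.spn_mono i _ _ ?_ (hBCS i hiC)
      rintro x ⟨hx, hxi⟩
      exact ⟨hIB₄ (hBCI' hx), hxi⟩
    · exact hB₄S i (Finset.mem_sdiff.2 ⟨hi, hiC⟩) (by simp)
  · refine hQW₁.trans ?_
    rw [← hIW₁]
    exact M.closure_subset_closure hIB₄

/-- The combined induction. -/
theorem all_statements (hD : Dichotomy P Ind Spn) (hP : ∀ i, P i ⊆ M.E) (n : ℕ) :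
    ∀ S : Finset ι, S.card = n →
      ExactSt M P Ind Spn S ∧ SolSt M P Ind Spn S ∧ LiftSt M P Ind Spn S := by
  classical
  induction n using Nat.strong_induction_on with
  | _ n ih =>
    intro S hS
    have hsmall : ∀ A ⊂ S, ExactSt M P Ind Spn A ∧ SolSt M P Ind Spn A ∧ LiftSt M P Ind Spn A := by
      intro A hA
      have hlt := Finset.card_lt_card hA
      exact ih A.card (hS ▸ hlt) A rfl
    have hExact : ExactSt M P Ind Spn S := by
      rcases S.eq_empty_or_nonempty with rfl | ⟨l, hl⟩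
      · intro W hW _ _
        exact ⟨W, hW, Subset.rfl, by simp, by simp, by simp⟩
      · have hS' : S = insert l (S.erase l) := (Finset.insert_erase hl).symm
        rw [hS']
        have hss : S.erase l ⊂ S := Finset.erase_ssubset hl
        refine exact_step hD hP (Finset.notMem_erase l S) (hsmall _ hss).2.1 ?_
        intro C hC
        exact (hsmall C (lt_of_le_of_lt hC hss)).2.2
    have hSol : SolSt M P Ind Spn S := by
      refine sol_step hD ?_
      intro A hA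
      by_cases hAS : A = S
      · rw [hAS]; exact hExact
      · exact (hsmall A (Finset.ssubset_iff_subset_ne.2 ⟨hA, hAS⟩)).1
    have hLift : LiftSt M P Ind Spn S := by
      refine lift_step hD ?_ (fun C hC => (hsmall C hC).2.2)
      intro A hA
      by_cases hAS : A = S
      · rw [hAS]; exact hSol
      · exact (hsmall A (Finset.ssubset_iff_subset_ne.2 ⟨hA, hAS⟩)).2.1
    exact ⟨hExact, hSol, hLift⟩

/-- The abstract coordinate theorem. -/
theorem coord_solution [Fintype ι] (hD : Dichotomy P Ind Spn) (hP : ∀ i, P i ⊆ M.E)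
    (h0 : ∀ i, Ind i ∅) :
    ∃ C : Finset ι, ∃ B, M.Indep B ∧ B ⊆ Un P Finset.univ ∧ (∀ i, Ind i (B ∩ P i)) ∧
      Un P C ⊆ M.closure (B ∩ Un P C) ∧ ∀ i, i ∉ C → Spn i (B ∩ P i) := by
  obtain ⟨C, -, B, hBi, -, hB, hBI, hBcl, hBS⟩ :=
    (all_statements (M := M) hD hP _ Finset.univ rfl).2.1 ∅ M.empty_indep (fun i _ => by simpa using h0 i)
  refine ⟨C, B, hBi, ?_, fun i => hBI i (Finset.mem_univ i), ?_, fun i hi => hBS i (Finset.mem_univ i) hi⟩
  · simpa using hB
  · simpa using hBcl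

end Abstract

end Vale.Agent.Lib.P068
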