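import Mathlib

/-!
Definitions for the hand-ins on the infinite matroid intersection conjecture.
-/

namespace Vale.Agent.Lib.P068

/-- The pair `(M, N)` satisfies intersection: some common independent set splits as
`JM ∪ JN` (disjoint) with `cl_M(JM) ∪ cl_N(JN)` the whole ground set. -/
def SatisfiesIntersection {α : Type*} (M N : Matroid α) : Prop :=
  ∃ JM JN : Set α, Disjoint JM JN ∧ M.Indep (JM ∪ JN) ∧ N.Indep (JM ∪ JN) ∧
    M.closure JM ∪ N.closure JN = M.E

/-- A matroid is near-uniform if every subset `X` of its ground set either becomes independent
after deleting finitely many elements or becomes spanning after adding finitely many elements.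
Uniform matroids (every subset independent or spanning) are the case `F = ∅`; matroids of finite
rank and of finite corank are near-uniform as well. -/
def NearUniform {α : Type*} (N : Matroid α) : Prop :=
  ∀ X : Set α, X ⊆ N.E → (∃ F : Set α, F.Finite ∧ N.Indep (X \ F)) ∨
    (∃ F : Set α, F.Finite ∧ N.closure (X ∪ F) = N.E)

end Vale.Agent.Lib.P068
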