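import Mathlib

/-!
Augmenting paths for a pair of arbitrary matroids and the finite perturbation theorem.
-/

namespace Vale.Agent.Lib.P068

open Set

variable {α : Type*}

section Exchange

variable {M : Matroid α} {I : Set α} {e f : α}

lemma swap_closure (hI : M.Indep I) (hf : f ∈ M.closure I) (hfI : f ∉ I) (he : e ∈ I)
    (hind : M.Indep (insert f (I \ {e}))) : M.closure (insert f (I \ {e})) = M.closure I := by
  have hne : f ≠ e := fun h => hfI (h ▸ he)
  have hfnot : f ∉ M.closure (I \ {e}) := by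
    have h1 : f ∉ I \ {e} := fun h => hfI h.1
    have := (hI.subset sdiff_subset).insert_indep_iff_of_notMem h1
    exact (this.1 hind).2
  have hIe : insert e (I \ {e}) = I := insert_sdiff_self_of_mem he
  have h2 : f ∈ M.closure (insert e (I \ {e})) \ M.closure (I \ {e}) :=
    ⟨by rw [hIe]; exact hf, hfnot⟩
  have h3 := (M.closure_exchange h2).1
  apply subset_antisymm
  · apply M.closure_subset_closure_of_subset_closure
    refine insert_subset hf ?_
    exact sdiff_subset.trans (M.subset_closure I hI.subset_ground)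
  · apply M.closure_subset_closure_of_subset_closure
    intro a ha
    by_cases hae : a = e
    · subst hae; exact h3
    · exact M.subset_closure_of_subset (subset_insert _ _) (insert_subset
        (M.mem_ground_of_mem_closure hf) (sdiff_subset.trans hI.subset_ground)) ⟨ha, hae⟩

/-- Bottom-up simultaneous exchange. -/
lemma exch (hI : M.Indep I) (x y : ℕ → α) (m : ℕ)
    (h1 : ∀ i < m, x i ∈ M.closure I ∧ x i ∉ I ∧ y i ∈ I ∧ M.Indep (insert (x i) (I \ {y i})))
    (h2 : ∀ i j, i < j → j < m → ¬ M.Indep (insert (x j) (I \ {y i}))) :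
    M.Indep ((I \ (y '' Iio m)) ∪ (x '' Iio m)) ∧
      M.closure ((I \ (y '' Iio m)) ∪ (x '' Iio m)) = M.closure I := by
  induction m with
  | zero => simp [hI]
  | succ m ih =>
    obtain ⟨hIm, hclm⟩ := ih (fun i hi => h1 i (by omega)) (fun i j hij hj => h2 i j hij (by omega))
    set Im := (I \ (y '' Iio m)) ∪ (x '' Iio m) with hImdef
    obtain ⟨hxcl, hxI, hyI, hxy⟩ := h1 m (by omega)
    have hxIm : x m ∉ Im := by
      rintro (h | ⟨i, hi, hxi⟩)
      · exact hxI h.1
      · have hi' : i < m := hi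
        have := h2 i m hi' (by omega)
        exact this (hxi ▸ (h1 i (by omega)).2.2.2)
    have hyIm : y m ∈ Im := by
      left
      refine ⟨hyI, ?_⟩
      rintro ⟨i, hi, hyi⟩
      have hi' : i < m := hi
      exact h2 i m hi' (by omega) (hyi ▸ hxy)
    have hxclm : x m ∈ M.closure Im := hclm ▸ hxcl
    -- the fundamental circuit of `x m` is the same for `I` and `Im`
    have hC := hI.fundCircuit_isCircuit hxcl hxI
    have hCsub : M.fundCircuit (x m) I ⊆ insert (x m) Im := by
      intro a ha
      rcases (M.fundCircuit_subset_insert (x m) I ha) with rfl | haI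
      · exact mem_insert _ _
      · by_cases hax : a = x m
        · subst hax; exact mem_insert _ _
        · refine mem_insert_of_mem _ (Or.inl ⟨haI, ?_⟩)
          rintro ⟨i, hi, hyi⟩
          have hi' : i < m := hi
          have := (hI.mem_fundCircuit_iff hxcl hxI).1 ha
          subst hyi
          apply h2 i m hi' (by omega)
          rwa [insert_sdiff_of_notMem] at this
          intro h
          exact hax h.symm
    have hCeq := hC.eq_fundCircuit_of_subset hIm hCsub
    have hymem : y m ∈ M.fundCircuit (x m) I := by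
      rw [hI.mem_fundCircuit_iff hxcl hxI, insert_sdiff_of_notMem]
      · exact hxy
      · intro h
        exact hxI (by rw [mem_singleton_iff.1 h]; exact hyI)
    have hymem' : y m ∈ M.fundCircuit (x m) Im := hCeq ▸ hymem
    have hind : M.Indep (insert (x m) Im \ {y m}) :=
      (hIm.mem_fundCircuit_iff hxclm hxIm).1 hymem'
    have hne : x m ≠ y m := fun h => hxI (h ▸ hyI)
    have hset : (I \ (y '' Iio (m + 1))) ∪ (x '' Iio (m + 1)) = insert (x m) Im \ {y m} := by
      ext a
      simp only [hImdef, mem_union, mem_sdiff, mem_image, mem_Iio, mem_insert_iff,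
        mem_singleton_iff]
      constructor
      · rintro (⟨haI, hay⟩ | ⟨i, hi, rfl⟩)
        · refine ⟨Or.inr (Or.inl ⟨haI, ?_⟩), ?_⟩
          · rintro ⟨i, hi, hia⟩
            exact hay ⟨i, by omega, hia⟩
          · rintro rfl
            exact hay ⟨m, by omega, rfl⟩
        · by_cases him : i = m
          · subst him
            exact ⟨Or.inl rfl, hne⟩
          · refine ⟨Or.inr (Or.inr ⟨i, by omega, rfl⟩), ?_⟩
            intro h
            have hi1 := (h1 i hi).2.1
            exact hi1 (h ▸ hyI)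
      · rintro ⟨(rfl | ⟨haI, hay⟩ | ⟨i, hi, rfl⟩), hne'⟩
        · exact Or.inr ⟨m, by omega, rfl⟩
        · refine Or.inl ⟨haI, ?_⟩
          rintro ⟨i, hi, hia⟩
          by_cases him : i = m
          · subst him; exact hne' hia.symm
          · exact hay ⟨i, by omega, hia⟩
        · exact Or.inr ⟨i, by omega, rfl⟩
    rw [hset]
    refine ⟨hind, ?_⟩
    rw [insert_sdiff_of_notMem _ (by simpa using hne)]
    rw [insert_sdiff_of_notMem _ (by simpa using hne)] at hind
    rw [swap_closure hIm hxclm hxIm hyIm hind, hclm]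

end Exchange


section Augment

variable {M N : Matroid α} {J : Set α}

/-- Arcs of the exchange digraph of `J`. -/
def Arc (M N : Matroid α) (J : Set α) (u v : α) : Prop :=
  (u ∈ J ∧ v ∉ J ∧ M.Indep (insert v (J \ {u}))) ∨ (u ∉ J ∧ v ∈ J ∧ N.Indep (insert u (J \ {v})))

/-- Sources of the exchange digraph. -/
def Src (M : Matroid α) (J : Set α) (x : α) : Prop := x ∉ J ∧ M.Indep (insert x J)

/-- Walks starting in a source. -/
def IsWalk (M N : Matroid α) (J : Set α) (k : ℕ) (p : ℕ → α) : Prop :=
  Src M J (p 0) ∧ ∀ i < k, Arc M N J (p i) (p (i + 1))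

/-- Points reachable from the sources. -/
def Reach (M N : Matroid α) (J : Set α) (x : α) : Prop :=
  ∃ k p, IsWalk M N J k p ∧ p k = x

lemma reach_of_src {x : α} (h : Src M J x) : Reach M N J x :=
  ⟨0, fun _ => x, ⟨h, by simp⟩, rfl⟩

lemma reach_step {x y : α} (h : Reach M N J x) (ha : Arc M N J x y) : Reach M N J y := by
  classical
  obtain ⟨k, p, ⟨h0, hw⟩, rfl⟩ := h
  refine ⟨k + 1, fun n => if n ≤ k then p n else y, ⟨?_, ?_⟩, ?_⟩
  · simpa using h0
  · intro i hi
    by_cases hik : i + 1 ≤ k
    · have : i ≤ k := by omega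
      simp only [this, hik, if_true]
      exact hw i (by omega)
    · have hik' : i = k := by omega
      subst hik'
      simpa using ha
  · simp

/-- Elements of the fundamental circuit other than `e` give exchanges. -/
lemma indep_of_mem_fund {K : Matroid α} {e y : α} (hJ : K.Indep J) (hcl : e ∈ K.closure J)
    (heJ : e ∉ J) (hy : y ∈ K.fundCircuit e J) (hye : y ≠ e) : K.Indep (insert e (J \ {y})) := by
  have := (hJ.mem_fundCircuit_iff hcl heJ).1 hy
  rwa [insert_sdiff_of_notMem _ (by simpa using hye.symm)] at this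

/-- If every element of `fundCircuit` other than `e` lies in `A` then `e` is spanned by `A`. -/
lemma mem_closure_of_fund_subset {K : Matroid α} {e : α} {A : Set α} (hJ : K.Indep J)
    (hcl : e ∈ K.closure J) (heJ : e ∉ J)
    (h : ∀ y ∈ K.fundCircuit e J, y ≠ e → y ∈ A) : e ∈ K.closure A := by
  have hC := hJ.fundCircuit_isCircuit hcl heJ
  have h1 := hC.mem_closure_sdiff_singleton_of_mem (K.mem_fundCircuit e J)
  refine K.closure_subset_closure ?_ h1
  rintro y ⟨hy, hye⟩
  exact h y hy hye

/-- Elements that are not addable lie in the closure. -/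
lemma mem_closure_of_not_indep {K : Matroid α} {e : α} (hJ : K.Indep J) (he : e ∈ K.E)
    (heJ : e ∉ J) (h : ¬ K.Indep (insert e J)) : e ∈ K.closure J := by
  by_contra hcl
  exact h ((hJ.insert_indep_iff_of_notMem heJ).2 ⟨he, hcl⟩)

/-- The first half of the no-augmenting-path theorem: when no sink is reachable, the set `J`
itself is a solution. -/
lemma satisfies_of_no_path (hE : M.E = N.E) (hJM : M.Indep J) (hJN : N.Indep J)
    (hno : ¬ ∃ x, Reach M N J x ∧ x ∉ J ∧ N.Indep (insert x J)) :
    ∃ JM JN : Set α, Disjoint JM JN ∧ M.Indep (JM ∪ JN) ∧ N.Indep (JM ∪ JN) ∧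
      M.closure JM ∪ N.closure JN = M.E := by
  classical
  set R := {x | Reach M N J x} with hR
  have hun : (J \ R) ∪ (J ∩ R) = J := sdiff_union_inter J R
  refine ⟨J \ R, J ∩ R, disjoint_sdiff_inter, by rwa [hun], by rwa [hun], ?_⟩
  apply subset_antisymm
  · exact union_subset (M.closure_subset_ground _) (hE ▸ N.closure_subset_ground _)
  intro e he
  have heN : e ∈ N.E := hE ▸ he
  by_cases heJ : e ∈ J
  · by_cases heR : e ∈ R
    · exact Or.inr (N.subset_closure_of_subset subset_rfl (inter_subset_left.trans hJN.subset_ground)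
        ⟨heJ, heR⟩)
    · exact Or.inl (M.subset_closure_of_subset subset_rfl (sdiff_subset.trans hJM.subset_ground)
        ⟨heJ, heR⟩)
  · by_cases heR : e ∈ R
    · right
      have hnotsink : ¬ N.Indep (insert e J) := fun h => hno ⟨e, heR, heJ, h⟩
      have hcl := mem_closure_of_not_indep hJN heN heJ hnotsink
      refine mem_closure_of_fund_subset hJN hcl heJ ?_
      intro y hy hye
      have hyJ : y ∈ J := ((N.fundCircuit_subset_insert e J) hy).resolve_left hye
      have hind := indep_of_mem_fund hJN hcl heJ hy hye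
      exact ⟨hyJ, reach_step heR (Or.inr ⟨heJ, hyJ, hind⟩)⟩
    · left
      have hnotsrc : ¬ M.Indep (insert e J) := fun h => heR (reach_of_src ⟨heJ, h⟩)
      have hcl := mem_closure_of_not_indep hJM he heJ hnotsrc
      refine mem_closure_of_fund_subset hJM hcl heJ ?_
      intro y hy hye
      have hyJ : y ∈ J := ((M.fundCircuit_subset_insert e J) hy).resolve_left hye
      have hind := indep_of_mem_fund hJM hcl heJ hy hye
      refine ⟨hyJ, fun hyR => heR (reach_step hyR (Or.inl ⟨hyJ, heJ, hind⟩))⟩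

/-- A path from a source to a sink of length exactly `k`. -/
def IsPath (M N : Matroid α) (J : Set α) (k : ℕ) (p : ℕ → α) : Prop :=
  IsWalk M N J k p ∧ p k ∉ J ∧ N.Indep (insert (p k) J)

/-- Splicing a shortcut. -/
lemma no_shortcut {k : ℕ} {p : ℕ → α} (hp : IsPath M N J k p)
    (hmin : ∀ k' q, IsPath M N J k' q → k ≤ k') {i j : ℕ} (hij : i < j) (hjk : j ≤ k)
    (harc : Arc M N J (p i) (p j)) : j = i + 1 := by
  classical
  by_contra hne
  have hlt : i + 1 < j := by omega
  set d := j - i - 1 with hd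
  have hdpos : 0 < d := by omega
  obtain ⟨⟨h0, hw⟩, hsink, hsink'⟩ := hp
  have : IsPath M N J (k - d) (fun n => if n ≤ i then p n else p (n + d)) := by
    have hkd : k - d + d = k := by omega
    have hkdi : ¬ (k - d ≤ i) := by omega
    refine ⟨⟨?_, ?_⟩, ?_, ?_⟩
    · simpa using h0
    · intro n hn
      by_cases hni : n + 1 ≤ i
      · have h' : n ≤ i := by omega
        simp only [hni, h', if_true]
        exact hw n (by omega)
      · by_cases hni' : n = i
        · subst hni'
          have hj : n + 1 + d = j := by omega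
          simp only [le_refl, if_true, hni, if_false, hj]
          exact harc
        · have h1 : ¬ n ≤ i := by omega
          simp only [h1, hni, if_false]
          have := hw (n + d) (by omega)
          have hh : n + d + 1 = n + 1 + d := by omega
          rwa [hh] at this
    · simp only [hkdi, if_false, hkd]
      exact hsink
    · simp only [hkdi, if_false, hkd]
      exact hsink'
  have := hmin _ _ this
  omega

/-- No later point of a shortest path is a source. -/
lemma no_later_source {k : ℕ} {p : ℕ → α} (hp : IsPath M N J k p)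
    (hmin : ∀ k' q, IsPath M N J k' q → k ≤ k') {j : ℕ} (hj : 0 < j) (hjk : j ≤ k)
    (hs : Src M J (p j)) : False := by
  obtain ⟨⟨h0, hw⟩, hsink, hsink'⟩ := hp
  have : IsPath M N J (k - j) (fun n => p (n + j)) := by
    have hkj : k - j + j = k := by omega
    refine ⟨⟨by simpa using hs, ?_⟩, by simpa [hkj] using hsink, by simpa [hkj] using hsink'⟩
    intro n hn
    have := hw (n + j) (by omega)
    have hh : n + j + 1 = n + 1 + j := by omega
    rwa [hh] at this
  have := hmin _ _ this
  omega

/-- No earlier point of a shortest path is a sink. -/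
lemma no_earlier_sink {k : ℕ} {p : ℕ → α} (hp : IsPath M N J k p)
    (hmin : ∀ k' q, IsPath M N J k' q → k ≤ k') {i : ℕ} (hi : i < k)
    (hs : p i ∉ J ∧ N.Indep (insert (p i) J)) : False := by
  obtain ⟨⟨h0, hw⟩, hsink, hsink'⟩ := hp
  have : IsPath M N J i p := ⟨⟨h0, fun n hn => hw n (by omega)⟩, hs.1, hs.2⟩
  have := hmin _ _ this
  omega

/-- Points of a path alternate between the complement of `J` and `J`. -/
lemma parity {k : ℕ} {p : ℕ → α} (hp : IsWalk M N J k p) (i : ℕ) :
    (2 * i ≤ k → p (2 * i) ∉ J) ∧ (2 * i + 1 ≤ k → p (2 * i + 1) ∈ J) := by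
  induction i with
  | zero =>
    have h0 : p 0 ∉ J := hp.1.1
    refine ⟨fun _ => h0, fun h => ?_⟩
    rcases hp.2 0 (by omega) with h1 | h1
    · exact absurd h1.1 h0
    · exact h1.2.1
  | succ i ih =>
    have h1 : 2 * (i + 1) ≤ k → p (2 * (i + 1)) ∉ J := by
      intro h
      have h2 := ih.2 (by omega)
      rcases hp.2 (2 * i + 1) (by omega) with h3 | h3
      · exact h3.2.1
      · exact absurd h2 h3.1
    refine ⟨h1, fun h => ?_⟩
    have h2 := h1 (by omega)
    rcases hp.2 (2 * (i + 1)) (by omega) with h3 | h3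
    · exact absurd h3.1 h2
    · exact h3.2.1

/-- The augmentation along a shortest path. -/
lemma augment (hJM : M.Indep J) (hJN : N.Indep J) (hex : ∃ k p, IsPath M N J k p) :
    ∃ G H : Finset α, (G : Set α) ⊆ J ∧ Disjoint (H : Set α) J ∧ H.card = G.card + 1 ∧
      M.Indep ((J \ G) ∪ H) ∧ N.Indep ((J \ G) ∪ H) := by
  classical
  have hk0 : ∃ k, ∃ p, IsPath M N J k p := hex
  obtain ⟨p, hp⟩ := Nat.find_spec hk0
  set k := Nat.find hk0 with hk
  have hmin : ∀ k' q, IsPath M N J k' q → k ≤ k' := fun k' q hq =>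
    Nat.find_min' hk0 ⟨q, hq⟩
  have hW : IsWalk M N J k p := hp.1
  have hev := fun i => (parity hW i).1
  have hod := fun i => (parity hW i).2
  -- the length of the path is even
  obtain ⟨s, hs⟩ : ∃ s, k = 2 * s := by
    refine ⟨k / 2, ?_⟩
    by_contra hne
    have hk1 : 2 * (k / 2) + 1 = k := by omega
    have := hod (k / 2) (by omega)
    rw [hk1] at this
    exact hp.2.1 this
  have hnsc : ∀ {i j : ℕ}, i < j → j ≤ k → Arc M N J (p i) (p j) → j = i + 1 :=
    fun hij hjk ha => no_shortcut hp hmin hij hjk ha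
  -- injectivity
  have hinj : ∀ {i j : ℕ}, i < j → j ≤ k → p i ≠ p j := by
    intro i j hij hjk heq
    by_cases hjk' : j = k
    · subst hjk'
      exact no_earlier_sink hp hmin hij (heq ▸ ⟨hp.2.1, hp.2.2⟩)
    · have ha : Arc M N J (p i) (p (j + 1)) := by
        rw [heq]
        exact hW.2 j (by omega)
      have := hnsc (show i < j + 1 by omega) (by omega) ha
      omega
  -- arcs
  have harcM : ∀ i < s, M.Indep (insert (p (2 * i + 2)) (J \ {p (2 * i + 1)})) := by
    intro i hi
    rcases hW.2 (2 * i + 1) (by omega) with h | h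
    · exact h.2.2
    · exact absurd (hod i (by omega)) h.1
  have harcN : ∀ i < s, N.Indep (insert (p (2 * i)) (J \ {p (2 * i + 1)})) := by
    intro i hi
    rcases hW.2 (2 * i) (by omega) with h | h
    · exact absurd h.1 (hev i (by omega))
    · exact h.2.2
  -- the exchange on the `M` side
  have hMex := exch hJM (fun i => p (2 * i + 2)) (fun i => p (2 * i + 1)) s
    (by
      intro i hi
      have hn : p (2 * i + 2) ∉ J := hev (i + 1) (by omega)
      refine ⟨?_, hn, hod i (by omega), harcM i hi⟩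
      refine mem_closure_of_not_indep hJM ((harcM i hi).subset_ground (mem_insert _ _)) hn ?_
      intro h
      exact no_later_source hp hmin (j := 2 * i + 2) (by omega) (by omega) ⟨hn, h⟩)
    (by
      intro i j hij hj h
      have ha : Arc M N J (p (2 * i + 1)) (p (2 * j + 2)) :=
        Or.inl ⟨hod i (by omega), hev (j + 1) (by omega), h⟩
      have := hnsc (show 2 * i + 1 < 2 * j + 2 by omega) (by omega) ha
      omega)
  -- the exchange on the `N` side
  have hNex := exch hJN (fun i => p (2 * (s - 1 - i))) (fun i => p (2 * (s - 1 - i) + 1)) s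
    (by
      intro i hi
      have hn : p (2 * (s - 1 - i)) ∉ J := hev _ (by omega)
      refine ⟨?_, hn, hod _ (by omega), harcN _ (by omega)⟩
      refine mem_closure_of_not_indep hJN
        ((harcN (s - 1 - i) (by omega)).subset_ground (mem_insert _ _)) hn ?_
      intro h
      exact no_earlier_sink hp hmin (i := 2 * (s - 1 - i)) (by omega) ⟨hn, h⟩)
    (by
      intro i j hij hj h
      have ha : Arc M N J (p (2 * (s - 1 - j))) (p (2 * (s - 1 - i) + 1)) :=
        Or.inr ⟨hev _ (by omega), hod _ (by omega), h⟩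
      have := hnsc (show 2 * (s - 1 - j) < 2 * (s - 1 - i) + 1 by omega) (by omega) ha
      omega)
  set G : Finset α := (Finset.range s).image (fun i => p (2 * i + 1)) with hG
  set H : Finset α := (Finset.range (s + 1)).image (fun i => p (2 * i)) with hH
  have hYM : (fun i => p (2 * i + 1)) '' Iio s = (G : Set α) := by
    ext a
    simp [hG]
  have hYN : (fun i => p (2 * (s - 1 - i) + 1)) '' Iio s = (G : Set α) := by
    ext a
    simp only [mem_image, mem_Iio, hG, Finset.coe_image, Finset.coe_range]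
    constructor
    · rintro ⟨i, hi, rfl⟩
      exact ⟨s - 1 - i, by omega, rfl⟩
    · rintro ⟨i, hi, rfl⟩
      refine ⟨s - 1 - i, by omega, ?_⟩
      have : s - 1 - (s - 1 - i) = i := by omega
      simp only [this]
  have hMset : (J \ (G : Set α)) ∪ H =
      insert (p 0) ((J \ ((fun i => p (2 * i + 1)) '' Iio s)) ∪ ((fun i => p (2 * i + 2)) '' Iio s)) := by
    rw [hYM]
    ext a
    simp only [mem_union, mem_sdiff, hH, Finset.coe_image, Finset.coe_range, mem_image, mem_Iio,
      mem_insert_iff]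
    constructor
    · rintro (h | ⟨i, hi, rfl⟩)
      · exact Or.inr (Or.inl h)
      · rcases i with _ | i
        · exact Or.inl rfl
        · exact Or.inr (Or.inr ⟨i, by omega, rfl⟩)
    · rintro (rfl | h | ⟨i, hi, rfl⟩)
      · exact Or.inr ⟨0, by omega, rfl⟩
      · exact Or.inl h
      · exact Or.inr ⟨i + 1, by omega, rfl⟩
  have hNset : (J \ (G : Set α)) ∪ H =
      insert (p (2 * s)) ((J \ ((fun i => p (2 * (s - 1 - i) + 1)) '' Iio s)) ∪
        ((fun i => p (2 * (s - 1 - i))) '' Iio s)) := by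
    rw [hYN]
    ext a
    simp only [mem_union, mem_sdiff, hH, Finset.coe_image, Finset.coe_range, mem_image, mem_Iio,
      mem_insert_iff]
    constructor
    · rintro (h | ⟨i, hi, rfl⟩)
      · exact Or.inr (Or.inl h)
      · by_cases his : i = s
        · subst his; exact Or.inl rfl
        · refine Or.inr (Or.inr ⟨s - 1 - i, by omega, ?_⟩)
          have : s - 1 - (s - 1 - i) = i := by omega
          simp only [this]
    · rintro (rfl | h | ⟨i, hi, rfl⟩)
      · exact Or.inr ⟨s, by omega, rfl⟩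
      · exact Or.inl h
      · exact Or.inr ⟨s - 1 - i, by omega, rfl⟩
  refine ⟨G, H, ?_, ?_, ?_, ?_, ?_⟩
  · intro a ha
    rw [← hYM] at ha
    obtain ⟨i, hi, rfl⟩ := ha
    have hi' : i < s := hi
    exact hod i (by omega)
  · rw [Set.disjoint_left]
    intro a ha haJ
    simp only [hH, Finset.coe_image, Finset.coe_range, mem_image, mem_Iio] at ha
    obtain ⟨i, hi, rfl⟩ := ha
    exact hev i (by omega) haJ
  · rw [hH, hG, Finset.card_image_of_injOn, Finset.card_image_of_injOn, Finset.card_range,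
      Finset.card_range]
    · intro a ha b hb hab
      simp only [Finset.coe_range, mem_Iio] at ha hb
      by_contra hne
      rcases lt_or_gt_of_ne hne with h | h
      · exact hinj (show 2 * a + 1 < 2 * b + 1 by omega) (by omega) hab
      · exact hinj (show 2 * b + 1 < 2 * a + 1 by omega) (by omega) hab.symm
    · intro a ha b hb hab
      simp only [Finset.coe_range, mem_Iio] at ha hb
      by_contra hne
      rcases lt_or_gt_of_ne hne with h | h
      · exact hinj (show 2 * a < 2 * b by omega) (by omega) hab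
      · exact hinj (show 2 * b < 2 * a by omega) (by omega) hab.symm
  · rw [hMset]
    obtain ⟨hind, hcl⟩ := hMex
    have hsrc := hW.1
    have h1 := (hJM.insert_indep_iff_of_notMem hsrc.1).1 hsrc.2
    rw [hind.insert_indep_iff, hcl]
    exact Or.inl ⟨h1.1, h1.2⟩
  · rw [hNset]
    obtain ⟨hind, hcl⟩ := hNex
    have hsk : p (2 * s) ∉ J ∧ N.Indep (insert (p (2 * s)) J) := by
      rw [← hs]; exact ⟨hp.2.1, hp.2.2⟩
    have h1 := (hJN.insert_indep_iff_of_notMem hsk.1).1 hsk.2
    rw [hind.insert_indep_iff, hcl]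
    exact Or.inl ⟨h1.1, h1.2⟩

end Augment

section Near

variable {M N K : Matroid α}

/-- The rank lemma: a set independent over `A` and spanned by `A ∪ B` is no larger than `B`. -/
lemma rank_le {A X B : Set α} (hAX : K.Indep (X ∪ A)) (hd : Disjoint X A)
    (hX : X ⊆ K.closure (B ∪ A)) : X.encard ≤ B.encard := by
  have hA : K.Indep A := hAX.subset subset_union_right
  have hc : (K.contract A).Indep X := hA.contract_indep_iff.2 ⟨hd, hAX⟩
  have hX' : X ⊆ (K.contract A).closure B := by
    rw [Matroid.contract_closure_eq]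
    exact subset_sdiff.2 ⟨hX, hd⟩
  calc X.encard = (K.contract A).eRk X := hc.eRk_eq_encard.symm
    _ ≤ (K.contract A).eRk ((K.contract A).closure B) := (K.contract A).eRk_mono hX'
    _ = (K.contract A).eRk B := (K.contract A).eRk_closure_eq B
    _ ≤ B.encard := (K.contract A).eRk_le_encard B

/-- One side of the near-solution step. -/
lemma one_side {A H B : Set α} (hAH : K.Indep (A ∪ H)) (hd : Disjoint H A)
    (hH : H ⊆ K.closure (A ∪ B)) (hB : B.Finite) :
    ∃ B', B'.Finite ∧ B'.ncard + H.ncard ≤ B.ncard ∧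
      K.closure (A ∪ B) ⊆ K.closure ((A ∪ H) ∪ B') := by
  obtain ⟨I, hIi, hAHI, hIsub, hIcl⟩ : ∃ I, K.Indep I ∧ (A ∪ H) ⊆ I ∧ I ⊆ (A ∪ H) ∪ B ∧
      K.closure I = K.closure ((A ∪ H) ∪ B) := by
    obtain ⟨I, hI, hAI⟩ := hAH.subset_isBasis'_of_subset (subset_union_left (t := B))
    exact ⟨I, hI.indep, hAI, hI.subset, hI.closure_eq_closure⟩
  set B' := I \ (A ∪ H) with hB'
  have hB'B : B' ⊆ B := by
    rintro x ⟨hx, hxAH⟩
    exact (hIsub hx).resolve_left hxAH
  have hB'fin : B'.Finite := hB.subset hB'B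
  have hIeq : I = (A ∪ H) ∪ B' := by
    rw [hB', union_sdiff_self, eq_comm]
    exact union_eq_right.2 hAHI
  have hX : (H ∪ B') ∪ A = I := by
    rw [hIeq]
    ext a
    simp only [mem_union]
    tauto
  have hdX : Disjoint (H ∪ B') A := by
    rw [disjoint_union_left]
    refine ⟨hd, ?_⟩
    rw [Set.disjoint_left]
    rintro a ⟨_, ha⟩ haA
    exact ha (Or.inl haA)
  have hXcl : H ∪ B' ⊆ K.closure (B ∪ A) := by
    rw [union_comm B A]
    refine union_subset hH ?_
    refine Set.Subset.trans ?_ (K.inter_ground_subset_closure (A ∪ B))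
    intro a ha
    refine ⟨Or.inr (hB'B ha), hIi.subset_ground ha.1⟩
  have hle := rank_le (K := K) (X := H ∪ B') (A := A) (B := B) (hX ▸ hIi) hdX hXcl
  have hfinX : (H ∪ B').Finite := by
    have : (H ∪ B').encard ≠ ⊤ := ne_top_of_le_ne_top hB.encard_lt_top.ne hle
    exact Set.encard_ne_top_iff.1 this
  have hHfin : H.Finite := hfinX.subset subset_union_left
  have hdisj : Disjoint B' H := by
    rw [Set.disjoint_left]
    rintro a ⟨_, ha⟩ haH
    exact ha (Or.inr haH)
  refine ⟨B', hB'fin, ?_, ?_⟩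
  · have h1 : (H ∪ B').ncard ≤ B.ncard := by
      rw [Set.ncard_def, Set.ncard_def]
      exact ENat.toNat_le_toNat hle hB.encard_lt_top.ne
    have h2 : (H ∪ B').ncard = H.ncard + B'.ncard :=
      Set.ncard_union_eq hdisj.symm hHfin hB'fin
    omega
  · have : K.closure ((A ∪ H) ∪ B') = K.closure I := by rw [← hIeq]
    rw [this, hIcl]
    exact K.closure_subset_closure (union_subset_union_left _ subset_union_left)

/-- The near-solution predicate. -/
def Near (M N : Matroid α) (J : Set α) (n : ℕ) : Prop :=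
  ∃ J1 J2 F1 F2 : Set α, J1 ∪ J2 = J ∧ Disjoint J1 J2 ∧ F1.Finite ∧ F2.Finite ∧
    F1.ncard + F2.ncard ≤ n ∧ M.E ⊆ M.closure (J1 ∪ F1) ∪ N.closure (J2 ∪ F2)

/-- An augmentation decreases the near-solution defect. -/
lemma near_step {J : Set α} {n : ℕ} (hnear : Near M N J n) {G H : Finset α}
    (hGJ : (G : Set α) ⊆ J) (hHJ : Disjoint (H : Set α) J) (hcard : H.card = G.card + 1)
    (hM : M.Indep ((J \ G) ∪ H)) (hN : N.Indep ((J \ G) ∪ H)) :
    1 ≤ n ∧ Near M N ((J \ G) ∪ H) (n - 1) := by
  classical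
  obtain ⟨J1, J2, F1, F2, rfl, hdisj, hF1, hF2, hn, hcov⟩ := hnear
  set H1 : Set α := (H : Set α) ∩ M.closure (J1 ∪ F1) with hH1
  set H2 : Set α := (H : Set α) \ M.closure (J1 ∪ F1) with hH2
  set A1 := J1 \ (G : Set α) with hA1
  set A2 := J2 \ (G : Set α) with hA2
  set G1 := (G : Set α) ∩ J1 with hG1
  set G2 := (G : Set α) ∩ J2 with hG2
  have hGfin : (G : Set α).Finite := G.finite_toSet
  have hG1f : G1.Finite := hGfin.subset inter_subset_left
  have hG2f : G2.Finite := hGfin.subset inter_subset_left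
  have hB1f : (G1 ∪ F1).Finite := hG1f.union hF1
  have hB2f : (G2 ∪ F2).Finite := hG2f.union hF2
  have hJ'M : (A1 ∪ H1) ⊆ ((J1 ∪ J2) \ (G : Set α)) ∪ H := by
    rintro a (⟨ha, haG⟩ | ha)
    · exact Or.inl ⟨Or.inl ha, haG⟩
    · exact Or.inr ha.1
  have hJ'N : (A2 ∪ H2) ⊆ ((J1 ∪ J2) \ (G : Set α)) ∪ H := by
    rintro a (⟨ha, haG⟩ | ha)
    · exact Or.inl ⟨Or.inr ha, haG⟩
    · exact Or.inr ha.1
  have hJ1cl : J1 ∪ F1 ⊆ A1 ∪ (G1 ∪ F1) := by
    rintro a (ha | ha)
    · by_cases haG : a ∈ (G : Set α)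
      · exact Or.inr (Or.inl ⟨haG, ha⟩)
      · exact Or.inl ⟨ha, haG⟩
    · exact Or.inr (Or.inr ha)
  have hJ2cl : J2 ∪ F2 ⊆ A2 ∪ (G2 ∪ F2) := by
    rintro a (ha | ha)
    · by_cases haG : a ∈ (G : Set α)
      · exact Or.inr (Or.inl ⟨haG, ha⟩)
      · exact Or.inl ⟨ha, haG⟩
    · exact Or.inr (Or.inr ha)
  have hd1 : Disjoint H1 A1 := by
    rw [Set.disjoint_left]
    rintro a ⟨haH, _⟩ ⟨haJ, _⟩
    exact Set.disjoint_left.1 hHJ haH (Or.inl haJ)
  have hd2 : Disjoint H2 A2 := by
    rw [Set.disjoint_left]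
    rintro a ⟨haH, _⟩ ⟨haJ, _⟩
    exact Set.disjoint_left.1 hHJ haH (Or.inr haJ)
  obtain ⟨B1, hB1, hB1c, hB1cl⟩ := one_side (K := M) (A := A1) (H := H1) (B := G1 ∪ F1)
    (hM.subset hJ'M) hd1 (fun a ha => M.closure_subset_closure hJ1cl ha.2) hB1f
  have hH2N : H2 ⊆ N.closure (J2 ∪ F2) := by
    rintro a ⟨haH, hacl⟩
    have haM : a ∈ M.E := hM.subset_ground (Or.inr haH)
    exact (hcov haM).resolve_left hacl
  obtain ⟨B2, hB2, hB2c, hB2cl⟩ := one_side (K := N) (A := A2) (H := H2) (B := G2 ∪ F2)
    (hN.subset hJ'N) hd2 (fun a ha => N.closure_subset_closure hJ2cl (hH2N ha)) hB2f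
  -- counting
  have hHc : H1.ncard + H2.ncard = H.card := by
    have hdH : Disjoint H1 H2 := by
      rw [Set.disjoint_left]
      rintro a ⟨_, ha1⟩ ⟨_, ha2⟩
      exact ha2 ha1
    have hun : H1 ∪ H2 = (H : Set α) := inter_union_sdiff _ _
    rw [← Set.ncard_union_eq hdH (H.finite_toSet.subset inter_subset_left)
      (H.finite_toSet.subset sdiff_subset), hun, Set.ncard_coe_finset]
  have hGc : G1.ncard + G2.ncard = G.card := by
    have hdG : Disjoint G1 G2 := by
      rw [Set.disjoint_left]
      rintro a ⟨_, ha1⟩ ⟨_, ha2⟩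
      exact Set.disjoint_left.1 hdisj ha1 ha2
    have hun : G1 ∪ G2 = (G : Set α) := by
      ext a
      constructor
      · rintro (h | h) <;> exact h.1
      · intro h
        rcases hGJ h with h' | h'
        · exact Or.inl ⟨h, h'⟩
        · exact Or.inr ⟨h, h'⟩
    rw [← Set.ncard_union_eq hdG hG1f hG2f, hun, Set.ncard_coe_finset]
  have hB1le : (G1 ∪ F1).ncard ≤ G1.ncard + F1.ncard := Set.ncard_union_le _ _
  have hB2le : (G2 ∪ F2).ncard ≤ G2.ncard + F2.ncard := Set.ncard_union_le _ _
  have hsum : B1.ncard + B2.ncard + 1 ≤ n := by omega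
  refine ⟨by omega, A1 ∪ H1, A2 ∪ H2, B1, B2, ?_, ?_, hB1, hB2, by omega, ?_⟩
  · ext a
    constructor
    · rintro ((ha | ha) | (ha | ha))
      · exact Or.inl ⟨Or.inl ha.1, ha.2⟩
      · exact Or.inr ha.1
      · exact Or.inl ⟨Or.inr ha.1, ha.2⟩
      · exact Or.inr ha.1
    · rintro (⟨ha | ha, haG⟩ | ha)
      · exact Or.inl (Or.inl ⟨ha, haG⟩)
      · exact Or.inr (Or.inl ⟨ha, haG⟩)
      · by_cases hacl : a ∈ M.closure (J1 ∪ F1)
        · exact Or.inl (Or.inr ⟨ha, hacl⟩)
        · exact Or.inr (Or.inr ⟨ha, hacl⟩)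
  · rw [Set.disjoint_left]
    rintro a (⟨ha, _⟩ | ⟨ha, hacl⟩) (⟨hb, _⟩ | ⟨hb, hbcl⟩)
    · exact Set.disjoint_left.1 hdisj ha hb
    · exact Set.disjoint_left.1 hHJ hb (Or.inl ha)
    · exact Set.disjoint_left.1 hHJ ha (Or.inr hb)
    · exact hbcl hacl
  · intro a ha
    rcases hcov ha with h | h
    · left
      exact hB1cl (M.closure_subset_closure hJ1cl h)
    · right
      exact hB2cl (N.closure_subset_closure hJ2cl h)

/-- The perturbation theorem in its inductive form. -/
theorem solution_of_near (hE : M.E = N.E) (n : ℕ) :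
    ∀ J, M.Indep J → N.Indep J → Near M N J n →
      ∃ JM JN : Set α, Disjoint JM JN ∧ M.Indep (JM ∪ JN) ∧ N.Indep (JM ∪ JN) ∧
        M.closure JM ∪ N.closure JN = M.E := by
  induction n with
  | zero =>
    intro J hJM hJN hnear
    by_cases hex : ∃ k p, IsPath M N J k p
    · obtain ⟨G, H, hG, hH, hc, hM, hN⟩ := augment hJM hJN hex
      have := (near_step hnear hG hH hc hM hN).1
      omega
    · refine satisfies_of_no_path hE hJM hJN ?_
      rintro ⟨x, ⟨k, p, hw, rfl⟩, hxJ, hx⟩
      exact hex ⟨k, p, hw, hxJ, hx⟩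
  | succ n ih =>
    intro J hJM hJN hnear
    by_cases hex : ∃ k p, IsPath M N J k p
    · obtain ⟨G, H, hG, hH, hc, hM, hN⟩ := augment hJM hJN hex
      have := (near_step hnear hG hH hc hM hN).2
      exact ih _ hM hN this
    · refine satisfies_of_no_path hE hJM hJN ?_
      rintro ⟨x, ⟨k, p, hw, rfl⟩, hxJ, hx⟩
      exact hex ⟨k, p, hw, hxJ, hx⟩

end Near

end Vale.Agent.Lib.P068
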