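import Mathlib
import Vale.Agent.Lib.P068.Defs
import Vale.Agent.Lib.P068.Coord
import Vale.Agent.Lib.P068.Perturb

/-!
The main theorem: an arbitrary matroid and a finite direct sum of near-uniform matroids satisfy
intersection.
-/

namespace Vale.Agent.Lib.P068

open Set

variable {α ι : Type*}

/-- The closure in a summand is contained in the closure in the direct sum. -/
lemma sigma_closure_subset (Ns : ι → Matroid α)
    (h : Pairwise (Function.onFun Disjoint fun i => (Ns i).E)) (i : ι) (X : Set α) :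
    (Ns i).closure X ⊆ (Matroid.disjointSigma Ns h).closure X := by
  intro x hx
  have hxE : x ∈ (Ns i).E := (Ns i).closure_subset_ground X hx
  have hxN : x ∈ (Matroid.disjointSigma Ns h).E := by
    rw [Matroid.disjointSigma_ground_eq]
    exact mem_iUnion.2 ⟨i, hxE⟩
  obtain ⟨I, hI⟩ := (Ns i).exists_isBasis' X
  have hIi := hI.indep
  have hIsub : I ⊆ X := hI.subset
  have hIN : (Matroid.disjointSigma Ns h).Indep I := by
    rw [Matroid.disjointSigma_indep_iff]
    refine ⟨fun j => ?_, hIi.subset_ground.trans (subset_iUnion (fun j => (Ns j).E) i)⟩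
    by_cases hji : j = i
    · subst hji
      exact hIi.subset inter_subset_left
    · have : I ∩ (Ns j).E = ∅ := by
        ext a
        simp only [mem_inter_iff, mem_empty_iff_false, iff_false, not_and]
        intro ha haj
        exact Set.disjoint_left.1 (h hji) haj (hIi.subset_ground ha)
      rw [this]
      exact (Ns j).empty_indep
  have hxcl : x ∈ (Ns i).closure I := by rwa [hI.closure_eq_closure]
  by_cases hxI : x ∈ I
  · exact (Matroid.disjointSigma Ns h).closure_subset_closure hIsub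
      ((Matroid.disjointSigma Ns h).subset_closure I hIN.subset_ground hxI)
  · refine (Matroid.disjointSigma Ns h).closure_subset_closure hIsub ?_
    refine mem_closure_of_not_indep hIN hxN hxI ?_
    intro hins
    rw [Matroid.disjointSigma_indep_iff] at hins
    have h1 := hins.1 i
    have h2 : insert x I ⊆ insert x I ∩ (Ns i).E :=
      subset_inter Subset.rfl (insert_subset hxE hIi.subset_ground)
    have h3 : (Ns i).Indep (insert x I) := h1.subset h2
    have h4 := (hIi.insert_indep_iff_of_notMem hxI).1 h3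
    exact h4.2 hxcl

/-- The coordinate structure attached to a family of near-uniform matroids. -/
lemma dichotomy_nearUniform (Ns : ι → Matroid α)
    (h : Pairwise (Function.onFun Disjoint fun i => (Ns i).E))
    (hNs : ∀ i, NearUniform (Ns i)) :
    Dichotomy (fun i => (Ns i).E)
      (fun i X => ∃ F : Set α, F.Finite ∧ (Ns i).Indep ((X ∩ (Ns i).E) \ F))
      (fun i X => ∃ F : Set α, F.Finite ∧ (Ns i).closure ((X ∩ (Ns i).E) ∪ F) = (Ns i).E) := by
  refine ⟨h, ?_, ?_, ?_, ?_⟩
  · rintro i X Y hXY ⟨F, hF, hInd⟩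
    exact ⟨F, hF, hInd.subset (sdiff_subset_sdiff_left (inter_subset_inter_left _ hXY))⟩
  · rintro i X Y hXY ⟨F, hF, hcl⟩
    refine ⟨F, hF, subset_antisymm ((Ns i).closure_subset_ground _) ?_⟩
    calc (Ns i).E = (Ns i).closure ((X ∩ (Ns i).E) ∪ F) := hcl.symm
      _ ⊆ (Ns i).closure ((Y ∩ (Ns i).E) ∪ F) :=
        (Ns i).closure_subset_closure (union_subset_union_left _ (inter_subset_inter_left _ hXY))
  · intro i X
    exact hNs i (X ∩ (Ns i).E) inter_subset_right
  · rintro i X Y hXY ⟨F0, hF0, hInd⟩ ⟨F1, hF1, hcl⟩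
    have hsub : (X ∩ (Ns i).E) \ F0 ⊆ Y ∩ (Ns i).E :=
      sdiff_subset.trans (inter_subset_inter_left _ hXY)
    obtain ⟨I, hI, hIX⟩ := hInd.subset_isBasis'_of_subset hsub
    refine ⟨X ∪ I, subset_union_left, union_subset hXY (hI.subset.trans inter_subset_left),
      ⟨F0, hF0, hI.indep.subset ?_⟩, ⟨F1, hF1, ?_⟩⟩
    · rintro a ⟨⟨ha | ha, haE⟩, haF⟩
      · exact hIX ⟨⟨ha, haE⟩, haF⟩
      · exact ha
    · refine subset_antisymm ((Ns i).closure_subset_ground _) ?_
      have h1 : (Ns i).closure (I ∪ F1) = (Ns i).closure ((Y ∩ (Ns i).E) ∪ F1) :=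
        (Ns i).closure_union_congr_left hI.closure_eq_closure
      calc (Ns i).E = (Ns i).closure ((Y ∩ (Ns i).E) ∪ F1) := hcl.symm
        _ = (Ns i).closure (I ∪ F1) := h1.symm
        _ ⊆ (Ns i).closure (((X ∪ I) ∩ (Ns i).E) ∪ F1) := by
          apply (Ns i).closure_subset_closure
          refine union_subset_union_left _ (subset_inter subset_union_right ?_)
          exact hI.indep.subset_ground

/-- Near-solutions give solutions. -/
theorem satisfies_of_near {M N : Matroid α} (hE : M.E = N.E) {J1 J2 F1 F2 : Set α}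
    (hdisj : Disjoint J1 J2) (hM : M.Indep (J1 ∪ J2)) (hN : N.Indep (J1 ∪ J2))
    (hF1 : F1.Finite) (hF2 : F2.Finite)
    (hcov : M.E ⊆ M.closure (J1 ∪ F1) ∪ N.closure (J2 ∪ F2)) : SatisfiesIntersection M N :=
  solution_of_near hE _ (J1 ∪ J2) hM hN ⟨J1, J2, F1, F2, rfl, hdisj, hF1, hF2, le_rfl, hcov⟩

/-- The main theorem. -/
theorem main_theorem [Finite ι] (Ns : ι → Matroid α)
    (h : Pairwise (Function.onFun Disjoint fun i => (Ns i).E))
    (hNs : ∀ i, NearUniform (Ns i)) (M : Matroid α)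
    (hE : M.E = (Matroid.disjointSigma Ns h).E) :
    SatisfiesIntersection M (Matroid.disjointSigma Ns h) := by
  classical
  haveI := Fintype.ofFinite ι
  set N := Matroid.disjointSigma Ns h with hNdef
  have hD := dichotomy_nearUniform Ns h hNs
  have hEE : M.E = ⋃ i, (Ns i).E := by
    rw [hE, hNdef, Matroid.disjointSigma_ground_eq]
  have hP : ∀ i, (Ns i).E ⊆ M.E := fun i => hEE ▸ subset_iUnion (fun j => (Ns j).E) i
  obtain ⟨C, B, hBi, hBsub, hBI, hBcl, hBS⟩ := coord_solution (M := M) hD hP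
    (fun i => ⟨∅, finite_empty, by simp⟩)
  choose F0 hF0 hF0i using hBI
  have hex1 : ∀ i, ∃ F : Set α, F.Finite ∧ (i ∉ C →
      (Ns i).closure ((B ∩ (Ns i).E) ∩ (Ns i).E ∪ F) = (Ns i).E) := by
    intro i
    by_cases hi : i ∈ C
    · exact ⟨∅, finite_empty, fun h => absurd hi h⟩
    · obtain ⟨F, hF, hcl⟩ := hBS i hi
      exact ⟨F, hF, fun _ => hcl⟩
  choose F1 hF1 hF1cl using hex1
  set FF : Set α := ⋃ i, F0 i with hFF
  have hFFfin : FF.Finite := finite_iUnion hF0
  set FS : Set α := ⋃ i, F1 i with hFS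
  have hFSfin : FS.Finite := finite_iUnion hF1
  set U : Set α := Un (fun i => (Ns i).E) C with hU
  refine satisfies_of_near (hE.trans rfl) (J1 := (B \ FF) ∩ U) (J2 := (B \ FF) \ U)
    (F1 := FF) (F2 := FF ∪ FS) disjoint_inf_sdiff ?_ ?_ hFFfin (hFFfin.union hFSfin) ?_
  · rw [inter_union_sdiff]
    exact hBi.subset sdiff_subset
  · rw [inter_union_sdiff, hNdef, Matroid.disjointSigma_indep_iff]
    refine ⟨fun i => ?_, ?_⟩
    · refine (hF0i i).subset ?_
      rintro a ⟨⟨haB, haF⟩, haE⟩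
      exact ⟨⟨⟨haB, haE⟩, haE⟩, fun h => haF (mem_iUnion.2 ⟨i, h⟩)⟩
    · intro a ha
      obtain ⟨i, -, hi⟩ := mem_Un.1 (hBsub ha.1)
      exact mem_iUnion.2 ⟨i, hi⟩
  · intro a ha
    rw [hEE] at ha
    obtain ⟨i, hi⟩ := mem_iUnion.1 ha
    by_cases hiC : i ∈ C
    · left
      have h1 : a ∈ U := subset_Un hiC hi
      refine M.closure_subset_closure ?_ (hBcl h1)
      rintro b ⟨hbB, hbU⟩
      by_cases hbF : b ∈ FF
      · exact Or.inr hbF
      · exact Or.inl ⟨⟨hbB, hbF⟩, hbU⟩
    · right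
      have h1 : a ∈ (Ns i).closure ((B ∩ (Ns i).E) ∩ (Ns i).E ∪ F1 i) := by
        rw [hF1cl i hiC]; exact hi
      have h2 := sigma_closure_subset Ns h i _ h1
      refine N.closure_subset_closure ?_ h2
      rintro b (⟨⟨hbB, hbE⟩, -⟩ | hb)
      · by_cases hbF : b ∈ FF
        · exact Or.inr (Or.inl hbF)
        · refine Or.inl ⟨⟨hbB, hbF⟩, ?_⟩
          intro hbU
          exact hiC (index_mem_of_mem_Un hD hbE hbU)
      · exact Or.inr (Or.inr (mem_iUnion.2 ⟨i, hb⟩))

end Vale.Agent.Lib.P068
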